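import Vale.Agent.Lib.P317.Orient

namespace Vale.Agent.Results.P317.OrientCommonBases

open Vale.Agent.Lib.P317

/-- For a mixed multigraph with vertex set `V`, undirected edges `E` (the edge `i` joins `a i` and
`b i`) and fixed arcs `F` (the arc `f` goes from `t f` to `h f`) having at least one `k`-arc-connected
orientation, there are two matroids on `E × Bool` whose common bases are exactly the graphs of the
`k`-arc-connected orientations of the edges, so their number is the number of common bases.  For
`k = 1` these are exactly the strongly connected orientations. -/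
theorem result {V E F : Type*} [Fintype V] [Fintype E] [Fintype F] [DecidableEq V] [DecidableEq E]
    (a b : E → V) (t h : F → V) (k : ℕ) (hex : ∃ x, IsArcConnected a b t h k x) :
    (∃ M₁ M₂ : Matroid (E × Bool), M₁.E = Set.univ ∧ M₂.E = Set.univ ∧
      (∀ B, M₁.IsBase B ↔ ∃ x, B = graphOf x) ∧
      (∀ B, M₂.IsBase B ↔ IsOrientBase a b t h k B) ∧
      (∀ B, (M₁.IsBase B ∧ M₂.IsBase B) ↔ ∃ x, IsArcConnected a b t h k x ∧ B = graphOf x) ∧
      Set.ncard {B | M₁.IsBase B ∧ M₂.IsBase B} = Set.ncard {x | IsArcConnected a b t h k x}) ∧
    (∀ x, IsArcConnected a b t h 1 x ↔ IsStronglyConnected a b t h x) :=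
  ⟨orientations_are_common_bases a b t h k hex, isArcConnected_one_iff a b t h⟩

end Vale.Agent.Results.P317.OrientCommonBases
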